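import Vale.Agent.P290.R2.H596.Spec2

/-! The holomorphic two-form of a fibre given by a relative two-form of the family. -/

open scoped Manifold ContDiff Topology
open Set Filter Metric

namespace Vale.Agent.P290.R2.H762

open Vale.Agent.P290 Vale.Agent.P290.K Vale.Agent.P290.H580 Vale.Agent.P290.H805
open Vale.Agent.P290.R2.H596

variable {T E : Type} [TopologicalSpace T] [TopologicalSpace E] {F : Family T E}
  {vol : E → T × C2 → ℂ}

open Classical in
/-- the coefficient of the two-form of the fibre over `t` -/
noncomputable def fvol (F : Family T E) (vol : E → T × C2 → ℂ) (t : T)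
    (e : OpenPartialHomeomorph (Fib F t) C2) (w : C2) : ℂ :=
  if h : ∃ x, fibChart F t x = e then vol h.choose.1 (t, w) else 1

/-- two points with the same chart of the fibre give the same coefficient -/
theorem vol_eq (hvol : RelForm F vol) (t : T) {x x' : Fib F t}
    (h : fibChart F t x = fibChart F t x') {w : C2} (hw : w ∈ (fibChart F t x).target) :
    vol x.1 (t, w) = vol x'.1 (t, w) := by
  have h1 : (t, w) ∈ (F.triv x.1).target := hw
  have h2 : (F.triv x.1).symm (t, w) ∈ (F.triv x'.1).source := by
    have h3 := (fibChart F t x).map_target hw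
    rw [h] at h3
    rw [h] at hw
    have h4 : ((fibChart F t x').symm w).1 ∈ (F.triv x'.1).source := h3
    rwa [← h, fibChart_symm_val F t x h1] at h4
  have h5 : ∀ u, u ∈ (fibChart F t x).target →
      (F.triv x'.1 ((F.triv x.1).symm (t, u))).2 = u := by
    intro u hu
    have hu1 : (t, u) ∈ (F.triv x.1).target := hu
    rw [← fibChart_symm_val F t x hu1, ← fibChart_apply, ← h]
    exact (fibChart F t x).right_inv hu
  have h6 : (fun u : C2 => (F.triv x'.1 ((F.triv x.1).symm (t, u))).2) =ᶠ[𝓝 w] id := by
    filter_upwards [(fibChart F t x).open_target.mem_nhds hw] with u hu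
    exact h5 u hu
  have h7 := (hvol x.1 t w h1).2.2.2 x'.1 h2
  have h8 : (ContinuousLinearMap.id ℂ C2).det = 1 := LinearMap.det_id
  rw [h6.fderiv_eq, fderiv_id, h8, mul_one, h5 w hw] at h7
  exact h7

theorem fvol_eq (hvol : RelForm F vol) (t : T) (x : Fib F t) {w : C2}
    (hw : w ∈ (fibChart F t x).target) : fvol F vol t (fibChart F t x) w = vol x.1 (t, w) := by
  have h : ∃ x', fibChart F t x' = fibChart F t x := ⟨x, rfl⟩
  rw [fvol, dif_pos h]
  exact vol_eq hvol t h.choose_spec (by rw [h.choose_spec]; exact hw)

/-- the two-form of the fibre over `t` -/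
noncomputable def volForm (hvol : RelForm F vol) (t : T) : VolForm (Fib F t) where
  coef := fvol F vol t
  holo := by
    rintro e ⟨x, rfl⟩
    intro w hw
    have hw1 : (t, w) ∈ (F.triv x.1).target := hw
    have h2 := (hvol x.1 t w hw1).2.1
    have h3 : (fun u : C2 => vol x.1 (t, u)) =ᶠ[𝓝 w] fvol F vol t (fibChart F t x) := by
      filter_upwards [(fibChart F t x).open_target.mem_nhds hw] with u hu
      exact (fvol_eq hvol t x hu).symm
    exact (h2.congr_of_eventuallyEq h3.symm).differentiableWithinAt
  ne_zero := by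
    rintro e ⟨x, rfl⟩
    intro w hw
    have hw1 : (t, w) ∈ (F.triv x.1).target := hw
    rw [fvol_eq hvol t x hw]
    exact (hvol x.1 t w hw1).2.2.1
  compat := by
    rintro e ⟨x, rfl⟩ e' ⟨x', rfl⟩
    intro w hw h1
    have hw1 : (t, w) ∈ (F.triv x.1).target := hw
    have h2 : ((fibChart F t x).symm w).1 ∈ (F.triv x'.1).source := h1
    rw [fibChart_symm_val F t x hw1] at h2
    have h3 : ∀ u ∈ (fibChart F t x).target, fibChart F t x' ((fibChart F t x).symm u) =
        (F.triv x'.1 ((F.triv x.1).symm (t, u))).2 := by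
      intro u hu
      have hu1 : (t, u) ∈ (F.triv x.1).target := hu
      rw [fibChart_apply, fibChart_symm_val F t x hu1]
    have h4 : (fun u => fibChart F t x' ((fibChart F t x).symm u)) =ᶠ[𝓝 w]
        fun u => (F.triv x'.1 ((F.triv x.1).symm (t, u))).2 := by
      filter_upwards [(fibChart F t x).open_target.mem_nhds hw] with u hu
      exact h3 u hu
    rw [h4.fderiv_eq, fvol_eq hvol t x hw]
    have h5 : fibChart F t x' ((fibChart F t x).symm w) ∈ (fibChart F t x').target :=
      (fibChart F t x').map_source h1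
    rw [fvol_eq hvol t x' h5, h3 w hw]
    exact (hvol x.1 t w hw1).2.2.2 x'.1 h2

theorem volForm_coef (hvol : RelForm F vol) (t : T) (x : Fib F t) {w : C2}
    (hw : w ∈ (fibChart F t x).target) :
    (volForm hvol t).coef (fibChart F t x) w = vol x.1 (t, w) :=
  fvol_eq hvol t x hw

end Vale.Agent.P290.R2.H762
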