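import Vale.Agent.P290.R2.H596.Spec2

/-! The ratio of the pull back of the two-form of a K3 surface and the two-form of a compact
connected fibre is constant. -/

open scoped Manifold ContDiff Topology
open Set Filter Metric

namespace Vale.Agent.P290.R2.H762

open Vale.Agent.P290 Vale.Agent.P290.K Vale.Agent.P290.H580 Vale.Agent.P290.H805
open Vale.Agent.P290.R2.H596

/-- multiplicativity of the Jacobian determinant -/
theorem det_comp {f g : ℂ × ℂ → ℂ × ℂ} {p : ℂ × ℂ} (hf : DifferentiableAt ℂ f (g p))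
    (hg : DifferentiableAt ℂ g p) :
    (fderiv ℂ (fun z => f (g z)) p).det = (fderiv ℂ f (g p)).det * (fderiv ℂ g p).det := by
  have h : fderiv ℂ (fun z => f (g z)) p = (fderiv ℂ f (g p)).comp (fderiv ℂ g p) :=
    fderiv_comp (g := f) (f := g) p hf hg
  rw [h]
  simp only [ContinuousLinearMap.det, ContinuousLinearMap.toLinearMap_comp, LinearMap.det_comp]

/-- the Jacobian determinant of a holomorphic map is holomorphic -/
theorem diff_det {g : ℂ × ℂ → ℂ × ℂ} {p : ℂ × ℂ} (hg : ∀ᶠ z in 𝓝 p, DifferentiableAt ℂ g z) :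
    DifferentiableAt ℂ (fun z => (fderiv ℂ g z).det) p := by
  have h1 : ContDiffAt ℂ (2 : ℕ) g p := contDiffAt_of_eventually hg 2
  have h2 : DifferentiableAt ℂ (fderiv ℂ g) p :=
    (h1.fderiv_right (m := 1) (by norm_num)).differentiableAt (by simp)
  have h3 : ∀ u, DifferentiableAt ℂ (fun z => fderiv ℂ g z u) p := fun u =>
    h2.clm_apply (differentiableAt_const u)
  simp_rw [C2_det]
  exact ((h3 E1).fst.mul (h3 E2).snd).sub ((h3 E2).fst.mul (h3 E1).snd)

/-- a function on a compact connected space which is locally holomorphic is constant -/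
theorem const_of_local {Y : Type} [TopologicalSpace Y] [CompactSpace Y] [ConnectedSpace Y]
    (φ : Y → ℂ)
    (h : ∀ y, ∃ (c : OpenPartialHomeomorph Y (ℂ × ℂ)) (ψ : ℂ × ℂ → ℂ), y ∈ c.source ∧
      (∀ᶠ v in 𝓝 (c y), DifferentiableAt ℂ ψ v) ∧ ∀ᶠ z in 𝓝 y, φ z = ψ (c z)) :
    ∃ lam, ∀ y, φ y = lam := by
  have hcont : Continuous φ := continuous_iff_continuousAt.2 fun y => by
    obtain ⟨c, ψ, hy, h1, h2⟩ := h y
    have h3 : ContinuousAt (fun z => ψ (c z)) y :=
      ContinuousAt.comp (g := ψ) h1.self_of_nhds.continuousAt (c.continuousAt hy)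
    exact h3.congr (h2.mono fun z hz => hz.symm)
  obtain ⟨y₀, hy₀⟩ : ∃ y₀, ∀ y, ‖φ y‖ ≤ ‖φ y₀‖ := by
    obtain ⟨y₀, -, h⟩ := isCompact_univ.exists_isMaxOn univ_nonempty hcont.norm.continuousOn
    exact ⟨y₀, fun y => h (mem_univ y)⟩
  refine ⟨φ y₀, ?_⟩
  have hS : IsClopen {y | φ y = φ y₀} := by
    refine ⟨isClosed_eq hcont continuous_const, isOpen_iff_mem_nhds.2 ?_⟩
    intro y hy
    obtain ⟨c, ψ, hyc, h1, h2⟩ := h y
    have hy' : φ y = φ y₀ := hy
    have h3 : IsLocalMax (norm ∘ ψ) (c y) := by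
      have h4 : ∀ᶠ v in 𝓝 (c y), φ (c.symm v) = ψ (c (c.symm v)) := by
        have h41 := c.continuousAt_symm (c.map_source hyc)
        rw [ContinuousAt, c.left_inv hyc] at h41
        exact h41.eventually h2
      have h5 : ∀ᶠ v in 𝓝 (c y), v ∈ c.target := c.open_target.mem_nhds (c.map_source hyc)
      filter_upwards [h4, h5] with v hv hv2
      rw [c.right_inv hv2] at hv
      simp only [Function.comp]
      rw [← hv, ← h2.self_of_nhds, hy']
      exact hy₀ _
    have h6 := Complex.eventually_eq_of_isLocalMax_norm h1 h3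
    have h7 : ∀ᶠ z in 𝓝 y, ψ (c z) = ψ (c y) := (c.continuousAt hyc).eventually h6
    filter_upwards [h2, h7] with z hz1 hz2
    rw [hz1, hz2, ← h2.self_of_nhds, hy']
  have h8 := hS.eq_univ ⟨y₀, rfl⟩
  intro y
  have h9 : y ∈ (univ : Set Y) := mem_univ y
  rw [← h8] at h9
  exact h9

section

variable {T E : Type} [TopologicalSpace T] [TopologicalSpace E] {F : Family T E} {t : T}

theorem own_target (y : Fib F t) : (t, (F.triv y.1 y.1).2) ∈ (F.triv y.1).target := by
  have h1 : F.triv y.1 y.1 = (t, (F.triv y.1 y.1).2) := by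
    rw [F.mk_eq y.1 (F.mem y.1), y.prop]
  rw [← h1]
  exact (F.triv y.1).map_source (F.mem y.1)

/-- the ratio may be computed in all charts -/
theorem formula {vol : E → T × (ℂ × ℂ) → ℂ} (hvol : RelForm F vol) (X : All.K3)
    (b : Fib F t → X.X) (y₀ y : Fib F t) (hy : y.1 ∈ (F.triv y₀.1).source)
    (e : OpenPartialHomeomorph X.X (ℂ × ℂ)) (he : e ∈ atlas (ℂ × ℂ) X.X) (hbe : b y ∈ e.source)
    (hb : All.Hol b y) :
    DifferentiableAt ℂ (fun w => e (b ((fibChart F t y₀).symm w))) (fibChart F t y₀ y) ∧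
    X.vol (chartAt (ℂ × ℂ) (b y)) (chartAt (ℂ × ℂ) (b y) (b y)) *
      (fderiv ℂ (fun w => chartAt (ℂ × ℂ) (b y) (b ((chartAt (ℂ × ℂ) y).symm w)))
        (chartAt (ℂ × ℂ) y y)).det / vol y.1 (t, (F.triv y.1 y.1).2) =
    X.vol e (e (b y)) *
      (fderiv ℂ (fun w => e (b ((fibChart F t y₀).symm w))) (fibChart F t y₀ y)).det /
        vol y₀.1 (t, fibChart F t y₀ y) := by
  have hXman := X.manifold
  have he' : chartAt (ℂ × ℂ) (b y) ∈ atlas (ℂ × ℂ) X.X := chart_mem_atlas _ _
  have hbe' : b y ∈ (chartAt (ℂ × ℂ) (b y)).source := mem_chart_source _ _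
  obtain ⟨hb1, hb2⟩ := hb
  rw [chartAt_fib] at hb2 ⊢
  generalize chartAt (ℂ × ℂ) (b y) = e' at he' hbe' hb2 ⊢
  -- the points
  have hys : y ∈ (fibChart F t y).source := F.mem y.1
  have hys0 : y ∈ (fibChart F t y₀).source := hy
  have hyt : fibChart F t y y ∈ (fibChart F t y).target := (fibChart F t y).map_source hys
  have hyt0 : fibChart F t y₀ y ∈ (fibChart F t y₀).target := (fibChart F t y₀).map_source hys0
  have hyt' : (t, fibChart F t y y) ∈ (F.triv y.1).target := hyt
  have hyt0' : (t, fibChart F t y₀ y) ∈ (F.triv y₀.1).target := hyt0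
  have hinv : (F.triv y.1).symm (t, fibChart F t y y) = y.1 := by
    rw [← fibChart_symm_val F t y hyt', (fibChart F t y).left_inv hys]
  have hinv0 : (F.triv y₀.1).symm (t, fibChart F t y₀ y) = y.1 := by
    rw [← fibChart_symm_val F t y₀ hyt0', (fibChart F t y₀).left_inv hys0]
  -- the transition maps of the fibre
  have hT1 : DifferentiableAt ℂ (fun w => fibChart F t y₀ ((fibChart F t y).symm w))
      (fibChart F t y y) := by
    have h := (F.hol y.1 y₀.1 t _ hyt' (by rw [hinv]; exact hy)).differentiableAt (by simp)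
    refine h.congr_of_eventuallyEq ?_
    filter_upwards [(fibChart F t y).open_target.mem_nhds hyt] with w hw
    rw [fibChart_apply, fibChart_symm_val F t y hw]
  have hT0 : DifferentiableAt ℂ (fun w => fibChart F t y ((fibChart F t y₀).symm w))
      (fibChart F t y₀ y) := by
    have h := (F.hol y₀.1 y.1 t _ hyt0' (by rw [hinv0]; exact F.mem y.1)).differentiableAt
      (by simp)
    refine h.congr_of_eventuallyEq ?_
    filter_upwards [(fibChart F t y₀).open_target.mem_nhds hyt0] with w hw
    rw [fibChart_apply, fibChart_symm_val F t y₀ hw]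
  -- the transition map of the K3 surface
  have hE : DifferentiableAt ℂ (fun z => e (e'.symm z)) (e' (b y)) := by
    have h : e'.symm ≫ₕ e ∈ contDiffGroupoid ω 𝓘(ℂ, ℂ × ℂ) :=
      StructureGroupoid.compatible (contDiffGroupoid ω 𝓘(ℂ, ℂ × ℂ)) he' he
    have h1 := contMDiffOn_iff_contDiffOn.1 (contMDiffOn_of_mem_contDiffGroupoid h)
    have h2 : e' (b y) ∈ (e'.symm ≫ₕ e).source := by
      rw [OpenPartialHomeomorph.trans_source]
      refine ⟨e'.map_source hbe', ?_⟩
      change e.toPartialEquiv.source (e'.symm (e' (b y)))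
      rw [e'.left_inv hbe']
      exact hbe
    exact (h1.contDiffAt ((e'.symm ≫ₕ e).open_source.mem_nhds h2)).differentiableAt (by simp)
  -- the representation of `b`
  have hcs : ContinuousAt (fibChart F t y).symm (fibChart F t y y) :=
    (fibChart F t y).continuousAt_symm hyt
  have hcs0 : ContinuousAt (fibChart F t y₀).symm (fibChart F t y₀ y) :=
    (fibChart F t y₀).continuousAt_symm hyt0
  have hli : (fibChart F t y).symm (fibChart F t y y) = y := (fibChart F t y).left_inv hys
  have hli0 : (fibChart F t y₀).symm (fibChart F t y₀ y) = y := (fibChart F t y₀).left_inv hys0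
  have hne1 : ∀ᶠ w in 𝓝 (fibChart F t y y), b ((fibChart F t y).symm w) ∈ e'.source := by
    have h : ContinuousAt (fun w => b ((fibChart F t y).symm w)) (fibChart F t y y) :=
      ContinuousAt.comp (g := b) (by rw [hli]; exact hb1) hcs
    exact h.eventually (e'.open_source.mem_nhds (by simp only [hli]; exact hbe'))
  have hne2 : ∀ᶠ w in 𝓝 (fibChart F t y y), (fibChart F t y).symm w ∈ (fibChart F t y₀).source :=
    hcs.eventually ((fibChart F t y₀).open_source.mem_nhds (by rw [hli]; exact hys0))
  have hne0 : ∀ᶠ w in 𝓝 (fibChart F t y₀ y), b ((fibChart F t y₀).symm w) ∈ e'.source := by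
    have h : ContinuousAt (fun w => b ((fibChart F t y₀).symm w)) (fibChart F t y₀ y) :=
      ContinuousAt.comp (g := b) (by rw [hli0]; exact hb1) hcs0
    exact h.eventually (e'.open_source.mem_nhds (by simp only [hli0]; exact hbe'))
  have hne3 : ∀ᶠ w in 𝓝 (fibChart F t y₀ y), (fibChart F t y₀).symm w ∈ (fibChart F t y).source :=
    hcs0.eventually ((fibChart F t y).open_source.mem_nhds (by rw [hli0]; exact hys))
  have hG' : DifferentiableAt ℂ (fun w => e (b ((fibChart F t y).symm w)))
      (fibChart F t y y) := by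
    have h := DifferentiableAt.comp (g := fun z => e (e'.symm z))
      (f := fun w => e' (b ((fibChart F t y).symm w))) (fibChart F t y y)
      (by rw [hli]; exact hE) hb2
    refine h.congr_of_eventuallyEq ?_
    filter_upwards [hne1] with w hw
    simp only [Function.comp]
    rw [e'.left_inv hw]
  have hG : DifferentiableAt ℂ (fun w => e (b ((fibChart F t y₀).symm w)))
      (fibChart F t y₀ y) := by
    have h := DifferentiableAt.comp (g := fun w => e (b ((fibChart F t y).symm w)))
      (f := fun w => fibChart F t y ((fibChart F t y₀).symm w)) (fibChart F t y₀ y)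
      (by rw [hli0]; exact hG') hT0
    refine h.congr_of_eventuallyEq ?_
    filter_upwards [hne3] with w hw
    simp only [Function.comp]
    rw [(fibChart F t y).left_inv hw]
  refine ⟨hG, ?_⟩
  -- the determinants
  have d1 : (fderiv ℂ (fun w => e (b ((fibChart F t y).symm w))) (fibChart F t y y)).det =
      (fderiv ℂ (fun z => e (e'.symm z)) (e' (b y))).det *
        (fderiv ℂ (fun w => e' (b ((fibChart F t y).symm w))) (fibChart F t y y)).det := by
    have h := det_comp (f := fun z => e (e'.symm z))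
      (g := fun w => e' (b ((fibChart F t y).symm w))) (p := fibChart F t y y)
      (by rw [hli]; exact hE) hb2
    rw [hli] at h
    rw [← h]
    congr 1
    refine Filter.EventuallyEq.fderiv_eq ?_
    filter_upwards [hne1] with w hw
    rw [e'.left_inv hw]
  have d2 : (fderiv ℂ (fun w => e (b ((fibChart F t y).symm w))) (fibChart F t y y)).det =
      (fderiv ℂ (fun w => e (b ((fibChart F t y₀).symm w))) (fibChart F t y₀ y)).det *
        (fderiv ℂ (fun w => fibChart F t y₀ ((fibChart F t y).symm w)) (fibChart F t y y)).det := by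
    have h := det_comp (f := fun w => e (b ((fibChart F t y₀).symm w)))
      (g := fun w => fibChart F t y₀ ((fibChart F t y).symm w)) (p := fibChart F t y y)
      (by rw [hli]; exact hG) hT1
    rw [hli] at h
    rw [← h]
    congr 1
    refine Filter.EventuallyEq.fderiv_eq ?_
    filter_upwards [hne2] with w hw
    rw [(fibChart F t y₀).left_inv hw]
  have hX := (((X.holo e' he').2 (e' (b y)) (e'.map_source hbe')).2 e he
    (by rw [e'.left_inv hbe']; exact hbe))
  rw [e'.left_inv hbe'] at hX
  obtain ⟨-, -, hv1, hv2⟩ := hvol y.1 t _ hyt'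
  have hv0 := (hvol y₀.1 t _ hyt0').2.2.1
  have hV := hv2 y₀.1 (by rw [hinv]; exact hy)
  rw [hinv] at hV
  have d3 : (fderiv ℂ (fun w => fibChart F t y₀ ((fibChart F t y).symm w))
      (fibChart F t y y)).det = (fderiv ℂ (fun u => (F.triv y₀.1 ((F.triv y.1).symm (t, u))).2)
        (fibChart F t y y)).det := by
    congr 1
    refine Filter.EventuallyEq.fderiv_eq ?_
    filter_upwards [(fibChart F t y).open_target.mem_nhds hyt] with w hw
    rw [fibChart_apply, fibChart_symm_val F t y hw]
  rw [← d3] at hV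
  have hd := d1.symm.trans d2
  have hv1' : vol y.1 (t, (F.triv y.1 y.1).2) ≠ 0 := hv1
  have hV' : vol y.1 (t, (F.triv y.1 y.1).2) = vol y₀.1 (t, fibChart F t y₀ y) *
    (fderiv ℂ (fun w => fibChart F t y₀ ((fibChart F t y).symm w)) (fibChart F t y y)).det := hV
  rw [div_eq_div_iff hv1' hv0, hX, hV']
  linear_combination (X.vol e (e (b y)) * vol y₀.1 (t, fibChart F t y₀ y)) * hd

end

theorem stConst : StConst := by
  intro T E _ _ F vol hvol t _ _ X b hb
  have hbc : Continuous b := continuous_iff_continuousAt.2 fun y => (hb y).1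
  obtain ⟨lam, hlam⟩ := const_of_local
    (fun y : Fib F t => X.vol (chartAt (ℂ × ℂ) (b y)) (chartAt (ℂ × ℂ) (b y) (b y)) *
      (fderiv ℂ (fun w => chartAt (ℂ × ℂ) (b y) (b ((chartAt (ℂ × ℂ) y).symm w)))
        (chartAt (ℂ × ℂ) y y)).det / vol y.1 (t, (F.triv y.1 y.1).2)) (by
    intro y₀
    have he : chartAt (ℂ × ℂ) (b y₀) ∈ atlas (ℂ × ℂ) X.X := chart_mem_atlas _ _
    have hbe : b y₀ ∈ (chartAt (ℂ × ℂ) (b y₀)).source := mem_chart_source _ _
    generalize chartAt (ℂ × ℂ) (b y₀) = e at he hbe
    refine ⟨fibChart F t y₀, fun v => X.vol e (e (b ((fibChart F t y₀).symm v))) *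
      (fderiv ℂ (fun w => e (b ((fibChart F t y₀).symm w))) v).det / vol y₀.1 (t, v),
      F.mem y₀.1, ?_, ?_⟩
    · have hc : ContinuousAt (fibChart F t y₀).symm (fibChart F t y₀ y₀) :=
        (fibChart F t y₀).continuousAt_symm ((fibChart F t y₀).map_source (F.mem y₀.1))
      have h1 : ∀ᶠ v in 𝓝 (fibChart F t y₀ y₀), v ∈ (fibChart F t y₀).target :=
        (fibChart F t y₀).open_target.mem_nhds ((fibChart F t y₀).map_source (F.mem y₀.1))
      have h2 : ∀ᶠ v in 𝓝 (fibChart F t y₀ y₀), b ((fibChart F t y₀).symm v) ∈ e.source := by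
        have h : ContinuousAt (fun v => b ((fibChart F t y₀).symm v)) (fibChart F t y₀ y₀) :=
          ContinuousAt.comp (g := b) hbc.continuousAt hc
        refine h.eventually (e.open_source.mem_nhds ?_)
        simp only [(fibChart F t y₀).left_inv (F.mem y₀.1)]
        exact hbe
      have h3 : ∀ v, v ∈ (fibChart F t y₀).target ∧ b ((fibChart F t y₀).symm v) ∈ e.source →
          DifferentiableAt ℂ (fun w => e (b ((fibChart F t y₀).symm w))) v := by
        rintro v ⟨hv1, hv2⟩
        have h := (formula hvol X b y₀ ((fibChart F t y₀).symm v)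
          ((fibChart F t y₀).map_target hv1) e he hv2 (hb _)).1
        rw [(fibChart F t y₀).right_inv hv1] at h
        exact h
      have h4 := (h1.and h2).eventually_nhds
      filter_upwards [h4] with v hv
      obtain ⟨hv1, hv2⟩ := hv.self_of_nhds
      have hv1' : (t, v) ∈ (F.triv y₀.1).target := hv1
      obtain ⟨-, h5, h6, -⟩ := hvol y₀.1 t v hv1'
      have h7 : DifferentiableAt ℂ (X.vol e) (e (b ((fibChart F t y₀).symm v))) :=
        ((X.holo e he).1).differentiableAt (e.open_target.mem_nhds (e.map_source hv2))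
      have h8 : DifferentiableAt ℂ (fun v => X.vol e (e (b ((fibChart F t y₀).symm v)))) v :=
        DifferentiableAt.comp (g := X.vol e) (f := fun v => e (b ((fibChart F t y₀).symm v))) v h7
          (h3 v ⟨hv1, hv2⟩)
      have h9 : DifferentiableAt ℂ (fun v => X.vol e (e (b ((fibChart F t y₀).symm v))) *
          (fderiv ℂ (fun w => e (b ((fibChart F t y₀).symm w))) v).det) v :=
        h8.mul (diff_det (hv.mono h3))
      have h10 : DifferentiableAt ℂ (fun u => (vol y₀.1 (t, u))⁻¹) v :=
        (differentiableAt_inv h6).comp v h5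
      simp only [div_eq_mul_inv]
      exact h9.mul h10
    · have h1 : ∀ᶠ y in 𝓝 y₀, y ∈ (fibChart F t y₀).source :=
        (fibChart F t y₀).open_source.mem_nhds (F.mem y₀.1)
      have h2 : ∀ᶠ y in 𝓝 y₀, b y ∈ e.source :=
        hbc.continuousAt.eventually (e.open_source.mem_nhds hbe)
      filter_upwards [h1, h2] with y hy1 hy2
      rw [(formula hvol X b y₀ y hy1 e he hy2 (hb y)).2, (fibChart F t y₀).left_inv hy1])
  refine ⟨lam, fun y => ?_⟩
  have h1 := hlam y
  have h2 := (hvol y.1 t _ (own_target y)).2.2.1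
  rw [div_eq_iff h2] at h1
  exact h1

end Vale.Agent.P290.R2.H762
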