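import Vale.Agent.P290.R2.H596.Spec3
import Vale.Agent.P290.R2.H762.Vol

/-! Volume preserving local biholomorphisms from large polydiscs to surfaces with a holomorphic map
to a Riemann surface which is not critical at a given point. -/

open scoped Manifold ContDiff Topology
open Set Filter Metric

namespace Vale.Agent.P290.R2.H762

open Vale.Agent.P290 Vale.Agent.P290.K Vale.Agent.P290.H580 Vale.Agent.P290.H805
open Vale.Agent.P290.R2.H596

/-- local inverse of a holomorphic function of one variable -/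
theorem inv_one {g : ℂ → ℂ} {a : ℂ} (hg : ∀ᶠ u in 𝓝 a, DifferentiableAt ℂ g u)
    (hd : deriv g a ≠ 0) :
    ∃ k : ℂ → ℂ, k (g a) = a ∧ ∀ᶠ w in 𝓝 (g a), DifferentiableAt ℂ k w ∧ g (k w) = w := by
  have h1 : ContDiffAt ℂ (1 : ℕ) g a := contDiffAt_of_eventually hg 1
  have h1' : ContDiffAt ℂ 1 g a := by exact_mod_cast h1
  have hf' := hg.self_of_nhds.hasDerivAt.hasFDerivAt_equiv hd
  refine ⟨h1'.localInverse hf' one_ne_zero, h1'.localInverse_apply_image hf' one_ne_zero, ?_⟩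
  have h2 := (h1'.to_localInverse hf' one_ne_zero).eventually (by simp)
  have h3 := (h1'.hasStrictFDerivAt' hf' one_ne_zero).eventually_right_inverse
  filter_upwards [h2, h3] with w hw1 hw2
  exact ⟨hw1.differentiableAt one_ne_zero, hw2⟩

/-- a local section of `t ∘ π` -/
theorem exists_section {X C : Type} [TopologicalSpace X] [ChartedSpace C2 X]
    [IsManifold 𝓘(ℂ, C2) 1 X] [TopologicalSpace C] [ChartedSpace ℂ C] [IsManifold 𝓘(ℂ) 1 C]
    {π : X → C} (hπ : MDifferentiable 𝓘(ℂ, C2) 𝓘(ℂ) π) {t : OpenPartialHomeomorph C ℂ}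
    (ht : t ∈ atlas ℂ C) {e : OpenPartialHomeomorph X C2} (he : e ∈ atlas C2 X) {x : X}
    (hx : x ∈ e.source) (hxt : π x ∈ t.source) (l : ℂ → C2) (a : ℂ) (hl : Differentiable ℂ l)
    (hla : l a = e x) (hd : deriv (fun s => hloc π t e (l s)) a ≠ 0) :
    ∃ r > (0 : ℝ), ∃ s : ℂ → X, s 0 = x ∧ ∀ h ∈ ball (0 : ℂ) r,
      MDifferentiableAt 𝓘(ℂ) 𝓘(ℂ, C2) s h ∧ t (π (s h)) = t (π x) + h := by
  have hπc : Continuous π := hπ.continuous
  have hO : IsOpen (e.target ∩ e.symm ⁻¹' (π ⁻¹' t.source)) :=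
    e.isOpen_inter_preimage_symm (t.open_source.preimage hπc)
  have hxO : e x ∈ e.target ∩ e.symm ⁻¹' (π ⁻¹' t.source) := by
    refine ⟨e.map_source hx, ?_⟩
    rw [mem_preimage, mem_preimage, e.left_inv hx]
    exact hxt
  have hlO : ∀ᶠ u in 𝓝 a, l u ∈ e.target ∩ e.symm ⁻¹' (π ⁻¹' t.source) :=
    hl.continuous.continuousAt.eventually (hO.mem_nhds (by rw [hla]; exact hxO))
  have hg : ∀ᶠ u in 𝓝 a, DifferentiableAt ℂ (fun s => hloc π t e (l s)) u := by
    filter_upwards [hlO] with u hu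
    exact DifferentiableAt.comp (g := hloc π t e) (f := l) u
      (hloc_diff hπ ht he hu.1 hu.2) (hl u)
  obtain ⟨k, hk1, hk2⟩ := inv_one hg hd
  have hga : hloc π t e (l a) = t (π x) := by
    rw [hla]
    simp only [hloc]
    rw [e.left_inv hx]
  rw [hga] at hk1 hk2
  have hkc : ContinuousAt k (t (π x)) := hk2.self_of_nhds.1.continuousAt
  have hkO : ∀ᶠ w in 𝓝 (t (π x)), l (k w) ∈ e.target ∩ e.symm ⁻¹' (π ⁻¹' t.source) := by
    have h := hkc.tendsto
    rw [hk1] at h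
    exact h.eventually hlO
  have hadd : Tendsto (fun h : ℂ => t (π x) + h) (𝓝 0) (𝓝 (t (π x))) := by
    have h : ContinuousAt (fun h : ℂ => t (π x) + h) 0 := by fun_prop
    rw [ContinuousAt, add_zero] at h
    exact h
  obtain ⟨r, hr, hball⟩ := Metric.eventually_nhds_iff_ball.1 (hadd.eventually (hk2.and hkO))
  refine ⟨r, hr, fun h => e.symm (l (k (t (π x) + h))), ?_, ?_⟩
  · simp only [add_zero]
    rw [hk1, hla, e.left_inv hx]
  · intro h hh
    obtain ⟨⟨h1, h2⟩, h3⟩ := hball h hh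
    refine ⟨?_, ?_⟩
    · have h4 := mdifferentiableAt_atlas_symm (I := 𝓘(ℂ, C2)) he h3.1
      have h5 : DifferentiableAt ℂ (fun h => l (k (t (π x) + h))) h := by
        have h6 : DifferentiableAt ℂ (fun h => k (t (π x) + h)) h :=
          DifferentiableAt.comp (g := k) (f := fun h => t (π x) + h) h h1 (by fun_prop)
        exact DifferentiableAt.comp (g := l) (f := fun h => k (t (π x) + h)) h (hl _) h6
      exact MDifferentiableAt.comp (I' := 𝓘(ℂ, C2)) (g := e.symm)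
        (f := fun h => l (k (t (π x) + h))) h h4 h5.mdifferentiableAt
    · exact h2

theorem symExist_aux {T E : Type} [TopologicalSpace T] [TopologicalSpace E] {F : Family T E}
    {vol : E → T × C2 → ℂ} (hvol : RelForm F vol) {t₀ : T} {R : ℝ} (hR : 0 < R) {x : Fib F t₀}
    {C : Type} [TopologicalSpace C] [ChartedSpace ℂ C] [IsManifold 𝓘(ℂ) 1 C]
    [IsManifold 𝓘(ℂ, C2) 1 (Fib F t₀)]
    {π : Fib F t₀ → C} (hπ : MDifferentiable 𝓘(ℂ, C2) 𝓘(ℂ) π) {t : OpenPartialHomeomorph C ℂ}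
    (ht : t ∈ atlas ℂ C) {K : Set C} (hxK : π x ∈ interior K) (hKt : K ⊆ t.source)
    {φ : Fib F t₀ → ℂ → Fib F t₀}
    (hφ : GlobF (π ⁻¹' t.source) (ham (volForm hvol t₀) π t) (π ⁻¹' interior K) φ)
    {r : ℝ} (hr : 0 < r) {s : ℂ → Fib F t₀} (hs0 : s 0 = x)
    (hs : ∀ h ∈ ball (0 : ℂ) r, MDifferentiableAt 𝓘(ℂ) 𝓘(ℂ, C2) s h ∧
      t (π (s h)) = t (π x) + h) : SB F vol t₀ x.1 R := by
  have hK0 : ∀ᶠ h in 𝓝 (0 : ℂ), s h ∈ π ⁻¹' interior K := by
    have h1 : ContinuousAt s 0 := (hs 0 (mem_ball_self hr)).1.continuousAt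
    refine h1.eventually ((isOpen_interior.preimage hπ.continuous).mem_nhds ?_)
    rw [hs0]
    exact hxK
  have hr0 : ∀ᶠ h in 𝓝 (0 : ℂ), h ∈ ball (0 : ℂ) r := ball_mem_nhds 0 hr
  obtain ⟨r', hr', hball⟩ := Metric.eventually_nhds_iff_ball.1 (hK0.and hr0)
  have hδ : 0 < r' / (R + 1) := by positivity
  obtain ⟨δ, hδdef⟩ : ∃ δ : ℂ, δ = ((r' / (R + 1) : ℝ) : ℂ) := ⟨_, rfl⟩
  have hδ0 : δ ≠ 0 := by
    rw [hδdef]
    exact_mod_cast hδ.ne'
  have hin : ∀ z ∈ closedBall (0 : C2) R, δ * z.1 ∈ ball (0 : ℂ) r' := by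
    intro z hz
    rw [mem_closedBall_zero_iff] at hz
    have h1 : ‖z.1‖ ≤ R := (norm_fst_le z).trans hz
    rw [mem_ball_zero_iff, norm_mul, hδdef, Complex.norm_real, Real.norm_of_nonneg hδ.le]
    have h2 : r' / (R + 1) * ‖z.1‖ ≤ r' / (R + 1) * R := by gcongr
    have h3 : r' / (R + 1) * R < r' := by
      rw [div_mul_eq_mul_div, div_lt_iff₀ (by linarith)]
      nlinarith
    linarith
  obtain ⟨G, hGdef⟩ : ∃ G : C2 → Fib F t₀, ∀ z, G z = φ (s (δ * z.1)) (-(δ⁻¹ * z.2)) :=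
    ⟨fun z => φ (s (δ * z.1)) (-(δ⁻¹ * z.2)), fun _ => rfl⟩
  refine ⟨fun z => (G z).1, ?_, ?_⟩
  · have h1 : G 0 = x := by
      rw [hGdef]
      simp only [Prod.fst_zero, Prod.snd_zero, mul_zero, neg_zero]
      rw [hs0]
      exact hφ.zero x hxK
    simp only [h1]
  · intro z hz
    obtain ⟨hzK, hzr⟩ := hball _ (hin z hz)
    obtain ⟨hs1, hs2⟩ := hs _ hzr
    have hlin : DifferentiableAt ℂ (fun z : C2 => δ * z.1) z := by fun_prop
    have hF : MDifferentiableAt 𝓘(ℂ, C2) 𝓘(ℂ, C2) (fun z : C2 => s (δ * z.1)) z :=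
      MDifferentiableAt.comp (I' := 𝓘(ℂ)) (g := s) (f := fun z : C2 => δ * z.1) z hs1
        hlin.mdifferentiableAt
    have hG : MDifferentiableAt 𝓘(ℂ, C2) 𝓘(ℂ, C2) G z := by
      have h1 := hφ.hol C2 (fun z => s (δ * z.1)) (fun z => -(δ⁻¹ * z.2)) z hF (by fun_prop) hzK
      have h2 : G = fun z => φ (s (δ * z.1)) (-(δ⁻¹ * z.2)) := funext hGdef
      rw [h2]
      exact h1
    obtain ⟨e, hedef⟩ : ∃ e, e = fibChart F t₀ (G z) := ⟨_, rfl⟩
    have he : e ∈ atlas C2 (Fib F t₀) := by rw [hedef]; exact ⟨G z, rfl⟩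
    have hze : G z ∈ e.source := by rw [hedef]; exact F.mem _
    have hD : DifferentiableAt ℂ (fun y => e (G y)) z :=
      ((mdifferentiableAt_atlas (I := 𝓘(ℂ, C2)) he hze).comp z hG).differentiableAt
    have hD' : DifferentiableAt ℂ (fun y => (F.triv (G z).1 (G y).1).2) z := by
      rw [hedef] at hD
      exact hD
    refine ⟨⟨Eventually.of_forall fun y => (G y).prop,
      ContinuousAt.comp (g := Fib.val) continuous_val.continuousAt hG.continuousAt, hD'⟩, ?_⟩
    have hcoef := volForm_coef hvol t₀ (G z) (w := e (G z))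
      (by rw [← hedef]; exact e.map_source hze)
    rw [← hedef] at hcoef
    have hj : jac F vol t₀ (fun z => (G z).1) z =
        vol (G z).1 (t₀, e (G z)) * (fderiv ℂ (fun y => e (G y)) z).det := by
      rw [hedef]
      rfl
    rw [hj, ← hcoef]
    have hc : (volForm hvol t₀).coef e (e (G z)) ≠ 0 :=
      (volForm hvol t₀).ne_zero e he _ (e.map_source hze)
    have hpz : π (G z) = π (s (δ * z.1)) := by
      rw [hGdef]
      exact hφ.pi_eq (volForm hvol t₀) hπ ht hzK _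
    obtain ⟨D, hDdef⟩ : ∃ D, D = fderiv ℂ (fun y => e (G y)) z := ⟨_, rfl⟩
    rw [← hDdef]
    have hDD : HasFDerivAt (fun y => e (G y)) D z := by rw [hDdef]; exact hD.hasFDerivAt
    obtain ⟨H, hH⟩ : ∃ H, H = ham (volForm hvol t₀) π t e (e (G z)) := ⟨_, rfl⟩
    have hE2 : D E2 = (-δ⁻¹) • H := by
      have h1 : HasDerivAt (fun u : ℂ => z + u • E2) E2 0 := by
        have h := ((hasDerivAt_id (0 : ℂ)).smul_const E2).const_add z
        rw [one_smul] at h
        exact h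
      have h2 : HasDerivAt (fun u : ℂ => e (G (z + u • E2))) (D E2) 0 :=
        hDD.comp_hasDerivAt_of_eq (0 : ℂ) h1 (by simp)
      have h3 := (hφ.ic _ hzK (-(δ⁻¹ * z.2))).2.2 e he (by rw [← hGdef]; exact hze)
      rw [← hGdef, ← hH] at h3
      have h4 : HasDerivAt (fun u : ℂ => -(δ⁻¹ * (z.2 + u))) (-δ⁻¹) 0 := by
        have h : HasDerivAt (fun u : ℂ => δ⁻¹ * (z.2 + u)) (δ⁻¹ * 1) 0 :=
          ((hasDerivAt_id (0 : ℂ)).const_add z.2).const_mul δ⁻¹
        rw [mul_one] at h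
        exact h.neg
      have h5 : HasDerivAt (fun u : ℂ => e (φ (s (δ * z.1)) (-(δ⁻¹ * (z.2 + u))))) ((-δ⁻¹) • H) 0 :=
        h3.scomp_of_eq (0 : ℂ) h4 (by simp)
      have h6 : (fun u : ℂ => e (G (z + u • E2))) =
          fun u : ℂ => e (φ (s (δ * z.1)) (-(δ⁻¹ * (z.2 + u)))) := by
        funext u
        rw [hGdef]
        simp [E2]
      rw [h6] at h2
      exact h2.unique h5
    have hE1 : fderiv ℂ (hloc π t e) (e (G z)) (D E1) = δ := by
      have h1 : DifferentiableAt ℂ (hloc π t e) (e (G z)) := by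
        refine hloc_diff hπ ht he (e.map_source hze) ?_
        rw [e.left_inv hze, hpz]
        exact hKt (interior_subset hzK)
      have h2 : HasFDerivAt (fun y => hloc π t e (e (G y)))
          ((fderiv ℂ (hloc π t e) (e (G z))).comp D) z :=
        HasFDerivAt.comp (g := hloc π t e) (f := fun y => e (G y)) z h1.hasFDerivAt hDD
      have h3 : (fun y : C2 => hloc π t e (e (G y))) =ᶠ[𝓝 z] fun y => t (π x) + δ * y.1 := by
        have h4 : ∀ᶠ y in 𝓝 z, G y ∈ e.source :=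
          hG.continuousAt.eventually (e.open_source.mem_nhds hze)
        have h5 : ∀ᶠ y in 𝓝 z, δ * y.1 ∈ ball (0 : ℂ) r' :=
          hlin.continuousAt.eventually (isOpen_ball.mem_nhds (hin z hz))
        filter_upwards [h4, h5] with y hy1 hy2
        obtain ⟨hyK, hyr⟩ := hball _ hy2
        simp only [hloc]
        rw [e.left_inv hy1, hGdef, hφ.pi_eq (volForm hvol t₀) hπ ht hyK _]
        exact (hs _ hyr).2
      have h6 : HasFDerivAt (fun y : C2 => t (π x) + δ * y.1)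
          (δ • ContinuousLinearMap.fst ℂ ℂ ℂ) z :=
        ((hasFDerivAt_fst (p := z)).const_mul δ).const_add _
      have h7 := h2.unique (h6.congr_of_eventuallyEq h3)
      have h8 := congrArg (fun L : C2 →L[ℂ] ℂ => L E1) h7
      simpa [E1] using h8
    have hspec := ham_spec (volForm hvol t₀) (π := π) (t := t) (e := e) (y := e (G z)) hc (D E1)
    rw [hE1, ← hH] at hspec
    have harea := area_map D E1 E2
    have h12 : area E1 E2 = 1 := by simp [area, E1, E2]
    rw [h12, mul_one, hE2, area_smul_right] at harea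
    have hanti : area (D E1) H = - area H (D E1) := by simp only [area]; ring
    rw [hanti] at harea
    rw [← harea]
    have hfin : (volForm hvol t₀).coef e (e (G z)) * (-δ⁻¹ * -area H (D E1)) =
        δ⁻¹ * ((volForm hvol t₀).coef e (e (G z)) * area H (D E1)) := by ring
    rw [hfin, hspec, inv_mul_cancel₀ hδ0]

theorem symExist : StSymExist := by
  intro T E _ _ F vol hvol t₀ hT2 hcpt x hx R hR
  obtain ⟨C, π, hπ', hcrit⟩ := hx
  have hman : IsManifold 𝓘(ℂ, C2) 1 (Fib F t₀) := IsManifold.of_le (n := ω) le_top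
  have hCman := C.manifold
  have hmanC : IsManifold 𝓘(ℂ) 1 C.C := IsManifold.of_le (n := ω) le_top
  have hCt2 : T2Space C.C := C.t2
  have hπ : MDifferentiable 𝓘(ℂ, C2) 𝓘(ℂ) π := fun y => (hπ' y).md
  have ht : chartAt ℂ (π x) ∈ atlas ℂ C.C := chart_mem_atlas _ _
  have hxt : π x ∈ (chartAt ℂ (π x)).source := mem_chart_source _ _
  have he : chartAt C2 x ∈ atlas C2 (Fib F t₀) := chart_mem_atlas _ _
  have hxe : x ∈ (chartAt C2 x).source := mem_chart_source _ _
  have hlc : LocallyCompactSpace C.C := ChartedSpace.locallyCompactSpace ℂ C.C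
  obtain ⟨K, hK, hxK, hKt⟩ := exists_compact_subset (chartAt ℂ (π x)).open_source hxt
  obtain ⟨φ, hφ⟩ := exists_ham_globF (volForm hvol t₀) hπ ht hK hKt
  have hsec : ∃ r > (0 : ℝ), ∃ s : ℂ → Fib F t₀, s 0 = x ∧ ∀ h ∈ ball (0 : ℂ) r,
      MDifferentiableAt 𝓘(ℂ) 𝓘(ℂ, C2) s h ∧
        chartAt ℂ (π x) (π (s h)) = chartAt ℂ (π x) (π x) + h := by
    have hcrit' : ¬ (deriv (fun s => hloc π (chartAt ℂ (π x)) (chartAt C2 x)
        (s, (chartAt C2 x x).2)) (chartAt C2 x x).1 = 0 ∧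
        deriv (fun s => hloc π (chartAt ℂ (π x)) (chartAt C2 x)
        ((chartAt C2 x x).1, s)) (chartAt C2 x x).2 = 0) := by
      intro h
      apply hcrit
      rintro e t y rfl rfl rfl
      exact h
    by_cases h1 : deriv (fun s => hloc π (chartAt ℂ (π x)) (chartAt C2 x)
        (s, (chartAt C2 x x).2)) (chartAt C2 x x).1 = 0
    · have h2 : deriv (fun s => hloc π (chartAt ℂ (π x)) (chartAt C2 x)
        ((chartAt C2 x x).1, s)) (chartAt C2 x x).2 ≠ 0 := fun h => hcrit' ⟨h1, h⟩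
      exact exists_section hπ ht he hxe hxt (fun s => ((chartAt C2 x x).1, s)) _
        (by fun_prop) rfl h2
    · exact exists_section hπ ht he hxe hxt (fun s => (s, (chartAt C2 x x).2)) _
        (by fun_prop) rfl h1
  obtain ⟨r, hr, s, hs0, hs⟩ := hsec
  exact symExist_aux hvol hR hπ ht hxK hKt hφ hr hs0 hs

end Vale.Agent.P290.R2.H762
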